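import Mathlib

/-!
# P127 (Kakeya conjecture): Kakeya sets with a strictly differentiable selection of segments

Let `K` be a Kakeya set of Euclidean `n`-space with a selection `e ↦ a e` of base points
(for every unit vector `e` the unit segment `{a e + t e : 0 ≤ t ≤ 1}` lies in `K`).  If the
selection is strictly differentiable at a single direction `e₀` (in the sense that its
degree-zero homogeneous extension `v ↦ a (v / ‖v‖)` is strictly differentiable at `e₀`, which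
holds for instance when the selection is continuously differentiable near `e₀`), then `K` has
nonempty interior, and therefore Hausdorff dimension `n`.
-/

namespace Vale.Agent.Results.P127.StrictDiffSelection

open Topology Filter Set

theorem result (n : ℕ) (K : Set (EuclideanSpace ℝ (Fin n)))
    (a : EuclideanSpace ℝ (Fin n) → EuclideanSpace ℝ (Fin n))
    (hK : ∀ e : EuclideanSpace ℝ (Fin n), ‖e‖ = 1 → ∀ t ∈ Set.Icc (0 : ℝ) 1, a e + t • e ∈ K)
    (e₀ : EuclideanSpace ℝ (Fin n)) (he₀ : ‖e₀‖ = 1)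
    (L : EuclideanSpace ℝ (Fin n) →L[ℝ] EuclideanSpace ℝ (Fin n))
    (hL : HasStrictFDerivAt (fun v : EuclideanSpace ℝ (Fin n) => a (‖v‖⁻¹ • v)) L e₀) :
    (interior K).Nonempty ∧ dimH K = n := by
  classical
  -- a parameter `t ∈ (0,1)` such that `-t` is not an eigenvalue of `L`
  obtain ⟨t, ht, hnot⟩ : ∃ t ∈ Set.Ioo (0 : ℝ) 1,
      ¬ Module.End.HasEigenvalue (L : EuclideanSpace ℝ (Fin n) →ₗ[ℝ] EuclideanSpace ℝ (Fin n))
        (-t) := by
    by_contra hcon
    push Not at hcon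
    have hfin := Module.End.finite_hasEigenvalue
      (L : EuclideanSpace ℝ (Fin n) →ₗ[ℝ] EuclideanSpace ℝ (Fin n))
    have hsub : Set.Ioo (0 : ℝ) 1 ⊆ (fun s : ℝ => -s) ⁻¹'
        {μ | Module.End.HasEigenvalue
          (L : EuclideanSpace ℝ (Fin n) →ₗ[ℝ] EuclideanSpace ℝ (Fin n)) μ} :=
      fun s hs => hcon s hs
    have hfin2 : (Set.Ioo (0 : ℝ) 1).Finite :=
      (hfin.preimage (neg_injective.injOn)).subset hsub
    exact (Set.Ioo_infinite (by norm_num : (0 : ℝ) < 1)) hfin2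
  have ht0 : 0 < t := ht.1
  have ht1 : t < 1 := ht.2
  -- the derivative candidate and its injectivity
  set A : EuclideanSpace ℝ (Fin n) →L[ℝ] EuclideanSpace ℝ (Fin n) :=
    t⁻¹ • L + ContinuousLinearMap.id ℝ (EuclideanSpace ℝ (Fin n)) with hA
  have hAinj : Function.Injective
      (A : EuclideanSpace ℝ (Fin n) →ₗ[ℝ] EuclideanSpace ℝ (Fin n)) := by
    rw [← LinearMap.ker_eq_bot, Submodule.eq_bot_iff]
    intro x hx
    by_contra hx0
    apply hnot
    refine Module.End.hasEigenvalue_of_hasEigenvector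
      (Module.End.hasEigenvector_iff.mpr ⟨?_, hx0⟩)
    rw [Module.End.mem_eigenspace_iff]
    have h1 : A x = 0 := hx
    have h2 : t⁻¹ • L x + x = 0 := by simpa [hA] using h1
    have h3 : L x = -t • x := by
      have h4 : t • (t⁻¹ • L x + x) = 0 := by rw [h2, smul_zero]
      rw [smul_add, smul_smul, mul_inv_cancel₀ ht0.ne', one_smul] at h4
      rw [neg_smul]
      exact eq_neg_of_add_eq_zero_left h4
    exact h3
  let Ae : EuclideanSpace ℝ (Fin n) ≃L[ℝ] EuclideanSpace ℝ (Fin n) :=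
    (LinearEquiv.ofInjectiveEndo
      (A : EuclideanSpace ℝ (Fin n) →ₗ[ℝ] EuclideanSpace ℝ (Fin n)) hAinj).toContinuousLinearEquiv
  have hAe : (Ae : EuclideanSpace ℝ (Fin n) →L[ℝ] EuclideanSpace ℝ (Fin n)) = A := by
    ext x
    rfl
  -- homogeneity of the extended selection
  have hhom : (fun v : EuclideanSpace ℝ (Fin n) => a (‖v‖⁻¹ • v)) =
      (fun v : EuclideanSpace ℝ (Fin n) => a (‖v‖⁻¹ • v)) ∘
        (fun v : EuclideanSpace ℝ (Fin n) => t⁻¹ • v) := by
    funext v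
    simp only [Function.comp_apply]
    congr 1
    rw [norm_smul, Real.norm_eq_abs, abs_of_pos (inv_pos.mpr ht0), mul_inv, inv_inv, smul_smul,
      mul_assoc, mul_comm ‖v‖⁻¹ t⁻¹, ← mul_assoc, mul_inv_cancel₀ ht0.ne', one_mul]
  have hpt : t⁻¹ • (t • e₀) = e₀ := by
    rw [smul_smul, inv_mul_cancel₀ ht0.ne', one_smul]
  have hg : HasStrictFDerivAt (fun v : EuclideanSpace ℝ (Fin n) => a (‖v‖⁻¹ • v))
      (t⁻¹ • L) (t • e₀) := by
    have hsm : HasStrictFDerivAt (fun v : EuclideanSpace ℝ (Fin n) => t⁻¹ • v)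
        (t⁻¹ • ContinuousLinearMap.id ℝ (EuclideanSpace ℝ (Fin n))) (t • e₀) :=
      (hasStrictFDerivAt_id (t • e₀)).const_smul t⁻¹
    have hL' : HasStrictFDerivAt (fun v : EuclideanSpace ℝ (Fin n) => a (‖v‖⁻¹ • v)) L
        ((fun v : EuclideanSpace ℝ (Fin n) => t⁻¹ • v) (t • e₀)) := by
      simpa only [hpt] using hL
    have hc : HasStrictFDerivAt ((fun v : EuclideanSpace ℝ (Fin n) => a (‖v‖⁻¹ • v)) ∘
        (fun v : EuclideanSpace ℝ (Fin n) => t⁻¹ • v))
        (L.comp (t⁻¹ • ContinuousLinearMap.id ℝ (EuclideanSpace ℝ (Fin n)))) (t • e₀) :=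
      HasStrictFDerivAt.comp (g := fun v : EuclideanSpace ℝ (Fin n) => a (‖v‖⁻¹ • v))
        (f := fun v : EuclideanSpace ℝ (Fin n) => t⁻¹ • v) (t • e₀) hL' hsm
    have hfun : ((fun v : EuclideanSpace ℝ (Fin n) => a (‖v‖⁻¹ • v)) ∘
        (fun v : EuclideanSpace ℝ (Fin n) => t⁻¹ • v)) =
        (fun v : EuclideanSpace ℝ (Fin n) => a (‖v‖⁻¹ • v)) := hhom.symm
    rw [hfun] at hc
    have hcomp : L.comp (t⁻¹ • ContinuousLinearMap.id ℝ (EuclideanSpace ℝ (Fin n))) = t⁻¹ • L := by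
      ext x
      simp
    rw [hcomp] at hc
    exact hc
  have hΦ : HasStrictFDerivAt
      (fun v : EuclideanSpace ℝ (Fin n) => a (‖v‖⁻¹ • v) + v)
      (Ae : EuclideanSpace ℝ (Fin n) →L[ℝ] EuclideanSpace ℝ (Fin n)) (t • e₀) := by
    rw [hAe]
    exact hg.add (hasStrictFDerivAt_id (t • e₀))
  have hmap := hΦ.map_nhds_eq_of_equiv
  -- the punctured open unit ball is a neighbourhood of `t • e₀`
  have hU : {v : EuclideanSpace ℝ (Fin n) | 0 < ‖v‖ ∧ ‖v‖ < 1} ∈ 𝓝 (t • e₀) := by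
    have hopen : IsOpen {v : EuclideanSpace ℝ (Fin n) | 0 < ‖v‖ ∧ ‖v‖ < 1} :=
      (isOpen_lt continuous_const continuous_norm).inter
        (isOpen_lt continuous_norm continuous_const)
    refine hopen.mem_nhds ?_
    have hn : ‖t • e₀‖ = t := by
      rw [norm_smul, he₀, mul_one, Real.norm_eq_abs, abs_of_pos ht0]
    exact ⟨by rw [hn]; exact ht0, by rw [hn]; exact ht1⟩
  have himg : (fun v : EuclideanSpace ℝ (Fin n) => a (‖v‖⁻¹ • v) + v) ''
      {v : EuclideanSpace ℝ (Fin n) | 0 < ‖v‖ ∧ ‖v‖ < 1} ⊆ K := by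
    rintro _ ⟨v, ⟨hv0, hv1⟩, rfl⟩
    have hunit : ‖‖v‖⁻¹ • v‖ = 1 := by
      rw [norm_smul, norm_inv, norm_norm, inv_mul_cancel₀ hv0.ne']
    have hv : v = ‖v‖ • (‖v‖⁻¹ • v) := by
      rw [smul_smul, mul_inv_cancel₀ hv0.ne', one_smul]
    have := hK (‖v‖⁻¹ • v) hunit ‖v‖ ⟨hv0.le, hv1.le⟩
    rw [← hv] at this
    exact this
  have hKnhds : K ∈ 𝓝 ((fun v : EuclideanSpace ℝ (Fin n) => a (‖v‖⁻¹ • v) + v) (t • e₀)) := by
    rw [← hmap]
    exact Filter.mem_of_superset (Filter.image_mem_map hU) himg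
  refine ⟨⟨_, mem_interior_iff_mem_nhds.2 hKnhds⟩, ?_⟩
  rw [Real.dimH_of_mem_nhds hKnhds, finrank_euclideanSpace_fin]

end Vale.Agent.Results.P127.StrictDiffSelection
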