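import Mathlib

/-!
# P127 (Kakeya conjecture): a local form for strictly differentiable selections of segments

Let `e₀` be a unit vector of Euclidean `n`-space, `U` a neighbourhood of `e₀` and `ℓ > 0`.
Let `K` be a set that contains, for every unit vector `e ∈ U`, the segment
`{a e + t e : 0 ≤ t ≤ ℓ}` of length `ℓ` in the direction `e` (only directions near `e₀` are
used, and the segments may be short).  If the selection `e ↦ a e` of base points is strictly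
differentiable at `e₀` (in the sense that its degree-zero homogeneous extension
`v ↦ a (v / ‖v‖)` is strictly differentiable at `e₀`, with derivative `L`), then

1. for every `t` with `0 < t < ℓ` such that `-t` is not an eigenvalue of `L`, the point
   `a e₀ + t e₀` of the segment in the direction `e₀` is an interior point of `K`;
2. all but finitely many points `a e₀ + t e₀`, `0 < t < ℓ`, of that segment are interior points
   of `K`;
3. `K` has nonempty interior and Hausdorff dimension `n`.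

The case `U = univ`, `ℓ = 1` of part 3 is the hand-in `P127.StrictDiffSelection`.
-/

namespace Vale.Agent.Results.P127.StrictDiffSelectionLocal

open Topology Filter Set

/-- The main step: a point `a e₀ + t e₀` of the segment with `0 < t < ℓ` is an interior point of
`K` as soon as `-t` is not an eigenvalue of the derivative `L`. -/
theorem mem_nhds_of_not_eigenvalue (n : ℕ) (K : Set (EuclideanSpace ℝ (Fin n)))
    (a : EuclideanSpace ℝ (Fin n) → EuclideanSpace ℝ (Fin n))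
    (e₀ : EuclideanSpace ℝ (Fin n)) (he₀ : ‖e₀‖ = 1)
    (U : Set (EuclideanSpace ℝ (Fin n))) (hU : U ∈ 𝓝 e₀) (ℓ : ℝ)
    (hK : ∀ e ∈ U, ‖e‖ = 1 → ∀ t ∈ Set.Icc (0 : ℝ) ℓ, a e + t • e ∈ K)
    (L : EuclideanSpace ℝ (Fin n) →L[ℝ] EuclideanSpace ℝ (Fin n))
    (hL : HasStrictFDerivAt (fun v : EuclideanSpace ℝ (Fin n) => a (‖v‖⁻¹ • v)) L e₀)
    (t : ℝ) (ht0 : 0 < t) (ht1 : t < ℓ)
    (hnot : ¬ Module.End.HasEigenvalue
      (L : EuclideanSpace ℝ (Fin n) →ₗ[ℝ] EuclideanSpace ℝ (Fin n)) (-t)) :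
    K ∈ 𝓝 (a e₀ + t • e₀) := by
  classical
  -- the derivative candidate and its injectivity
  set A : EuclideanSpace ℝ (Fin n) →L[ℝ] EuclideanSpace ℝ (Fin n) :=
    t⁻¹ • L + ContinuousLinearMap.id ℝ (EuclideanSpace ℝ (Fin n)) with hA
  have hAinj : Function.Injective
      (A : EuclideanSpace ℝ (Fin n) →ₗ[ℝ] EuclideanSpace ℝ (Fin n)) := by
    rw [← LinearMap.ker_eq_bot, Submodule.eq_bot_iff]
    intro x hx
    by_contra hx0
    apply hnot
    refine Module.End.hasEigenvalue_of_hasEigenvector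
      (Module.End.hasEigenvector_iff.mpr ⟨?_, hx0⟩)
    rw [Module.End.mem_eigenspace_iff]
    have h1 : A x = 0 := hx
    have h2 : t⁻¹ • L x + x = 0 := by simpa [hA] using h1
    have h3 : L x = -t • x := by
      have h4 : t • (t⁻¹ • L x + x) = 0 := by rw [h2, smul_zero]
      rw [smul_add, smul_smul, mul_inv_cancel₀ ht0.ne', one_smul] at h4
      rw [neg_smul]
      exact eq_neg_of_add_eq_zero_left h4
    exact h3
  let Ae : EuclideanSpace ℝ (Fin n) ≃L[ℝ] EuclideanSpace ℝ (Fin n) :=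
    (LinearEquiv.ofInjectiveEndo
      (A : EuclideanSpace ℝ (Fin n) →ₗ[ℝ] EuclideanSpace ℝ (Fin n)) hAinj).toContinuousLinearEquiv
  have hAe : (Ae : EuclideanSpace ℝ (Fin n) →L[ℝ] EuclideanSpace ℝ (Fin n)) = A := by
    ext x
    rfl
  -- homogeneity of the extended selection
  have hhom : (fun v : EuclideanSpace ℝ (Fin n) => a (‖v‖⁻¹ • v)) =
      (fun v : EuclideanSpace ℝ (Fin n) => a (‖v‖⁻¹ • v)) ∘
        (fun v : EuclideanSpace ℝ (Fin n) => t⁻¹ • v) := by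
    funext v
    simp only [Function.comp_apply]
    congr 1
    rw [norm_smul, Real.norm_eq_abs, abs_of_pos (inv_pos.mpr ht0), mul_inv, inv_inv, smul_smul,
      mul_assoc, mul_comm ‖v‖⁻¹ t⁻¹, ← mul_assoc, mul_inv_cancel₀ ht0.ne', one_mul]
  have hpt : t⁻¹ • (t • e₀) = e₀ := by
    rw [smul_smul, inv_mul_cancel₀ ht0.ne', one_smul]
  have hg : HasStrictFDerivAt (fun v : EuclideanSpace ℝ (Fin n) => a (‖v‖⁻¹ • v))
      (t⁻¹ • L) (t • e₀) := by
    have hsm : HasStrictFDerivAt (fun v : EuclideanSpace ℝ (Fin n) => t⁻¹ • v)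
        (t⁻¹ • ContinuousLinearMap.id ℝ (EuclideanSpace ℝ (Fin n))) (t • e₀) :=
      (hasStrictFDerivAt_id (t • e₀)).const_smul t⁻¹
    have hL' : HasStrictFDerivAt (fun v : EuclideanSpace ℝ (Fin n) => a (‖v‖⁻¹ • v)) L
        ((fun v : EuclideanSpace ℝ (Fin n) => t⁻¹ • v) (t • e₀)) := by
      simpa only [hpt] using hL
    have hc : HasStrictFDerivAt ((fun v : EuclideanSpace ℝ (Fin n) => a (‖v‖⁻¹ • v)) ∘
        (fun v : EuclideanSpace ℝ (Fin n) => t⁻¹ • v))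
        (L.comp (t⁻¹ • ContinuousLinearMap.id ℝ (EuclideanSpace ℝ (Fin n)))) (t • e₀) :=
      HasStrictFDerivAt.comp (g := fun v : EuclideanSpace ℝ (Fin n) => a (‖v‖⁻¹ • v))
        (f := fun v : EuclideanSpace ℝ (Fin n) => t⁻¹ • v) (t • e₀) hL' hsm
    have hfun : ((fun v : EuclideanSpace ℝ (Fin n) => a (‖v‖⁻¹ • v)) ∘
        (fun v : EuclideanSpace ℝ (Fin n) => t⁻¹ • v)) =
        (fun v : EuclideanSpace ℝ (Fin n) => a (‖v‖⁻¹ • v)) := hhom.symm
    rw [hfun] at hc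
    have hcomp : L.comp (t⁻¹ • ContinuousLinearMap.id ℝ (EuclideanSpace ℝ (Fin n))) = t⁻¹ • L := by
      ext x
      simp
    rw [hcomp] at hc
    exact hc
  have hΦ : HasStrictFDerivAt
      (fun v : EuclideanSpace ℝ (Fin n) => a (‖v‖⁻¹ • v) + v)
      (Ae : EuclideanSpace ℝ (Fin n) →L[ℝ] EuclideanSpace ℝ (Fin n)) (t • e₀) := by
    rw [hAe]
    exact hg.add (hasStrictFDerivAt_id (t • e₀))
  have hmap := hΦ.map_nhds_eq_of_equiv
  -- norm and direction of the base point `t • e₀`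
  have hn : ‖t • e₀‖ = t := by
    rw [norm_smul, he₀, mul_one, Real.norm_eq_abs, abs_of_pos ht0]
  have hdir : ‖t • e₀‖⁻¹ • (t • e₀) = e₀ := by rw [hn, hpt]
  -- a neighbourhood of `t • e₀`: short nonzero vectors whose direction lies in `U`
  have hW : {v : EuclideanSpace ℝ (Fin n) | (0 < ‖v‖ ∧ ‖v‖ < ℓ) ∧ ‖v‖⁻¹ • v ∈ U} ∈
      𝓝 (t • e₀) := by
    have hopen : IsOpen {v : EuclideanSpace ℝ (Fin n) | 0 < ‖v‖ ∧ ‖v‖ < ℓ} :=
      (isOpen_lt continuous_const continuous_norm).inter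
        (isOpen_lt continuous_norm continuous_const)
    have h1 : {v : EuclideanSpace ℝ (Fin n) | 0 < ‖v‖ ∧ ‖v‖ < ℓ} ∈ 𝓝 (t • e₀) :=
      hopen.mem_nhds ⟨by rw [hn]; exact ht0, by rw [hn]; exact ht1⟩
    have hne : ‖t • e₀‖ ≠ 0 := by rw [hn]; exact ht0.ne'
    have hcont : ContinuousAt (fun v : EuclideanSpace ℝ (Fin n) => ‖v‖⁻¹ • v) (t • e₀) :=
      (continuous_norm.continuousAt.inv₀ hne).smul continuousAt_id
    have h2 : (fun v : EuclideanSpace ℝ (Fin n) => ‖v‖⁻¹ • v) ⁻¹' U ∈ 𝓝 (t • e₀) := by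
      apply hcont.preimage_mem_nhds
      rw [hdir]
      exact hU
    exact Filter.inter_mem h1 h2
  have himg : (fun v : EuclideanSpace ℝ (Fin n) => a (‖v‖⁻¹ • v) + v) ''
      {v : EuclideanSpace ℝ (Fin n) | (0 < ‖v‖ ∧ ‖v‖ < ℓ) ∧ ‖v‖⁻¹ • v ∈ U} ⊆ K := by
    rintro _ ⟨v, ⟨⟨hv0, hv1⟩, hvU⟩, rfl⟩
    have hunit : ‖‖v‖⁻¹ • v‖ = 1 := by
      rw [norm_smul, norm_inv, norm_norm, inv_mul_cancel₀ hv0.ne']
    have hv : v = ‖v‖ • (‖v‖⁻¹ • v) := by
      rw [smul_smul, mul_inv_cancel₀ hv0.ne', one_smul]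
    have := hK (‖v‖⁻¹ • v) hvU hunit ‖v‖ ⟨hv0.le, hv1.le⟩
    rw [← hv] at this
    exact this
  have hKnhds : K ∈ 𝓝 ((fun v : EuclideanSpace ℝ (Fin n) => a (‖v‖⁻¹ • v) + v) (t • e₀)) := by
    rw [← hmap]
    exact Filter.mem_of_superset (Filter.image_mem_map hW) himg
  have hval : (fun v : EuclideanSpace ℝ (Fin n) => a (‖v‖⁻¹ • v) + v) (t • e₀) =
      a e₀ + t • e₀ := by
    show a (‖t • e₀‖⁻¹ • (t • e₀)) + t • e₀ = a e₀ + t • e₀
    rw [hdir]
  rw [hval] at hKnhds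
  exact hKnhds

theorem result (n : ℕ) (K : Set (EuclideanSpace ℝ (Fin n)))
    (a : EuclideanSpace ℝ (Fin n) → EuclideanSpace ℝ (Fin n))
    (e₀ : EuclideanSpace ℝ (Fin n)) (he₀ : ‖e₀‖ = 1)
    (U : Set (EuclideanSpace ℝ (Fin n))) (hU : U ∈ 𝓝 e₀) (ℓ : ℝ) (hℓ : 0 < ℓ)
    (hK : ∀ e ∈ U, ‖e‖ = 1 → ∀ t ∈ Set.Icc (0 : ℝ) ℓ, a e + t • e ∈ K)
    (L : EuclideanSpace ℝ (Fin n) →L[ℝ] EuclideanSpace ℝ (Fin n))
    (hL : HasStrictFDerivAt (fun v : EuclideanSpace ℝ (Fin n) => a (‖v‖⁻¹ • v)) L e₀) :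
    (∀ t : ℝ, 0 < t → t < ℓ →
      ¬ Module.End.HasEigenvalue
        (L : EuclideanSpace ℝ (Fin n) →ₗ[ℝ] EuclideanSpace ℝ (Fin n)) (-t) →
      a e₀ + t • e₀ ∈ interior K) ∧
    {t : ℝ | 0 < t ∧ t < ℓ ∧ a e₀ + t • e₀ ∉ interior K}.Finite ∧
    (interior K).Nonempty ∧ dimH K = n := by
  classical
  have key : ∀ t : ℝ, 0 < t → t < ℓ →
      ¬ Module.End.HasEigenvalue
        (L : EuclideanSpace ℝ (Fin n) →ₗ[ℝ] EuclideanSpace ℝ (Fin n)) (-t) →
      K ∈ 𝓝 (a e₀ + t • e₀) :=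
    fun t ht0 ht1 hnot =>
      mem_nhds_of_not_eigenvalue n K a e₀ he₀ U hU ℓ hK L hL t ht0 ht1 hnot
  have hfin := Module.End.finite_hasEigenvalue
    (L : EuclideanSpace ℝ (Fin n) →ₗ[ℝ] EuclideanSpace ℝ (Fin n))
  have hbad : {t : ℝ | 0 < t ∧ t < ℓ ∧ a e₀ + t • e₀ ∉ interior K}.Finite := by
    have hsub : {t : ℝ | 0 < t ∧ t < ℓ ∧ a e₀ + t • e₀ ∉ interior K} ⊆ (fun s : ℝ => -s) ⁻¹'
        {μ | Module.End.HasEigenvalue
          (L : EuclideanSpace ℝ (Fin n) →ₗ[ℝ] EuclideanSpace ℝ (Fin n)) μ} := by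
      rintro t ⟨ht0, ht1, hnotin⟩
      by_contra hne
      exact hnotin (mem_interior_iff_mem_nhds.2 (key t ht0 ht1 hne))
    exact (hfin.preimage (neg_injective.injOn)).subset hsub
  -- a good parameter exists because the open interval is infinite
  obtain ⟨t, ht, htgood⟩ : ∃ t ∈ Set.Ioo (0 : ℝ) ℓ, a e₀ + t • e₀ ∈ interior K := by
    by_contra hcon
    push Not at hcon
    have hsub : Set.Ioo (0 : ℝ) ℓ ⊆ {t : ℝ | 0 < t ∧ t < ℓ ∧ a e₀ + t • e₀ ∉ interior K} :=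
      fun s hs => ⟨hs.1, hs.2, hcon s hs⟩
    exact (Set.Ioo_infinite hℓ) (hbad.subset hsub)
  refine ⟨fun t ht0 ht1 hnot => mem_interior_iff_mem_nhds.2 (key t ht0 ht1 hnot), hbad,
    ⟨_, htgood⟩, ?_⟩
  rw [Real.dimH_of_mem_nhds (mem_interior_iff_mem_nhds.1 htgood), finrank_euclideanSpace_fin]

end Vale.Agent.Results.P127.StrictDiffSelectionLocal
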